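import Vale.Agent.P159.T1.D.Stmts

/-!
Row D.UP (`StmtU → StmtUp`): fields and sub-statements.
-/

namespace Vale.Agent.P159.T1.D.H775

open Vale.Agent.P159.T1.D

/-- main field of the left tip: `c₂ + μ` in the cone, `-c₁ + μ` elsewhere, `μ = 1/(2πY)` -/
noncomputable def BL (Y V : ℝ) (q : ℕ) (a A : ℝ) (e : Bnd) : ℝ :=
  (cf Y V q e + 1 / (2 * Real.pi * Y)) * gs (fun P => clp a A (tau P)) e

/-- reflection of the bonds -/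
def mb (r : ℕ) (e : Bnd) : Bnd :=
  if e.2 then (((r : ℤ) - e.1.1, e.1.2), true) else (((r : ℤ) - 1 - e.1.1, e.1.2), false)

/-- the reflected field -/
noncomputable def rf (r : ℕ) (B : Bnd → ℝ) (e : Bnd) : ℝ := if e.2 then -B (mb r e) else B (mb r e)

/-- field of the bump: horizontal bonds only, up to the lower lip -/
noncomputable def Bb (r : ℕ) (κ x y s : ℝ) (e : Bnd) : ℝ :=
  if e.2 = false ∧ e.1.2 ≤ -1 then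
    -∑ j ∈ Finset.Ico (-(r : ℤ)) e.1.2, bump r κ x y s (e.1.1, j) else 0

/-- the total field -/
noncomputable def BT (Y V : ℝ) (q n0 r : ℕ) (κ x y s : ℝ) (e : Bnd) : ℝ :=
  BL Y V q n0 ((r : ℝ) / 4) e + rf r (BL Y V q n0 ((r : ℝ) / 4)) e + Bb r κ x y s e +
    rf r (Bb r κ x y s) e

/-- U1 (376): the sector `(1|0)` with charges in terms of a field -/
def StmtU1 : Prop :=
  ∀ (b : ℝ) (U : Finset Z2) (ρ : Z2 → ℝ) (B : Bnd → ℝ), IsDiv U B ρ →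
    Zs b U 1 ρ = Real.exp (-∑ e ∈ bd U, B e * (sec U 1 e : ℝ)) * ZB b U (sec U 1) B

/-- U2 (376): divergence of the total field -/
def StmtU2 : Prop :=
  ∀ (Y V κ x y s : ℝ) (q n0 r R : ℕ), 0 < Y → 0 < V → 1 ≤ q → 0 < κ → 0 < s → s < y →
    s + x < 1 / 4 → (q : ℝ) * (y + s) < x - s → 1 ≤ n0 → 4 * n0 ≤ r → r ≤ R →
    IsDiv (SB R r) (BT Y V q n0 r κ x y s) (rho Y V q n0 r κ x y s)

/-- U3 (376): the flux through the upper lips -/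
def StmtU3 : Prop :=
  ∀ (Y V κ x y s : ℝ) (q n0 r R : ℕ), 0 < Y → 0 < V → 1 ≤ q → 0 < κ → 0 < s → s < y →
    s + x < 1 / 4 → (q : ℝ) * (y + s) < x - s → 1 ≤ n0 → 4 * n0 ≤ r → r ≤ R →
    ∑ e ∈ bd (SB R r), BT Y V q n0 r κ x y s e * (sec (SB R r) 1 e : ℝ) =
      -(2 * (V / (Y * (2 * Real.pi - ang q)) - 1 / (2 * Real.pi * Y)) *
        (Real.log ((r : ℝ) / 4) - Real.log n0))

/-- U4 (775): energy of the main field -/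
def StmtU4 : Prop :=
  ∀ (Y V : ℝ) (q n0 : ℕ), 0 < Y → 0 < V → 1 ≤ q → 20 ≤ n0 → ∃ C : ℝ, ∀ r : ℕ, 4 * n0 ≤ r →
    ∀ S : Finset Bnd, ∑ e ∈ S, BL Y V q n0 ((r : ℝ) / 4) e ^ 2 ≤
      ((V / (Y * ang q) + 1 / (2 * Real.pi * Y)) ^ 2 * ang q +
        (V / (Y * (2 * Real.pi - ang q)) - 1 / (2 * Real.pi * Y)) ^ 2 *
          (2 * Real.pi - ang q)) * Real.log r + C

/-- U5 (565): the bump field -/
def StmtU5 : Prop :=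
  ∀ (κ x y s : ℝ), 0 < κ → 0 < s → s < y → s < x → s + x < 1 / 4 → s + y < 1 / 4 →
    ∃ C : ℝ, 0 < C ∧ ∀ r : ℕ, 1 ≤ r →
      (∀ e, |Bb r κ x y s e| ≤ C / r) ∧
      (∀ e, Bb r κ x y s e ≠ 0 → -(r : ℤ) ≤ e.1.1 ∧ e.1.1 < 0 ∧ -(r : ℤ) ≤ e.1.2 ∧ e.1.2 < 0) ∧
      ∀ S : Finset Bnd, ∑ e ∈ S, Bb r κ x y s e ^ 2 ≤ C

/-- U6a (565): sup of the main field -/
def StmtU6a : Prop :=
  ∀ (Y V : ℝ) (q : ℕ), 0 < Y → 0 < V → 1 ≤ q → ∃ K : ℝ, 0 < K ∧ ∀ (n0 r : ℕ), 2 ≤ n0 →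
    4 * n0 ≤ r → ∀ e, |BL Y V q n0 ((r : ℝ) / 4) e| ≤ K / n0

/-- U6b (565): oscillation of the main field -/
def StmtU6b : Prop :=
  ∀ (Y V : ℝ) (q l : ℕ), 0 < Y → 0 < V → 1 ≤ q → ∃ n1 : ℕ, ∀ n0 ≥ n1, ∃ C : ℝ, ∀ r : ℕ,
    4 * n0 ≤ r → ∀ S : Finset Bnd, osc l S (BL Y V q n0 ((r : ℝ) / 4)) ≤ C

end Vale.Agent.P159.T1.D.H775
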